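import Vale.Agent.P097.H128.G.C3
import Vale.Agent.P097.H275.G.Defs

/-! # P097 / case [c], growth row: `GR.RowC` (climb), literal -/

set_option linter.all false

open Complex Metric Filter Topology Set

namespace Vale.Agent.P097.H128.G

/-- **`GR.RowC`** (climb, strip version) -/
theorem gr_rowC : GR.RowC := by
  obtain ⟨ε₁, h1, h2⟩ := rowC_strip
  refine ⟨ε₁, h1, ?_⟩
  intro Λ b F q Q hB c D r v K hD hr hv hK hKr hsub hbd A P θ aA aP aθ hθ h0 hev hlaw
  exact h2 hB hD hr hv hK hKr hsub hbd aA aP aθ hθ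
    (fun t w h => ⟨(hev t w h).1, (hev t w h).2.1⟩) hlaw

end Vale.Agent.P097.H128.G
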